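import Vale.Agent.P032.S5.H189.Swing

/-!
# P032: cells near the centre and near the points of the circle

Two open sets `A`, `B` of times, `A` dense on the left of `t`, `B` accumulating at `t`.  The arcs
with the letter `L` at `s + κ`, `s ∈ A`, and with the letter `L'` at `s + κ + 3`, `s ∈ B`: `gam`.
The arcs at `s + κ + 1`, `s ∈ A`, and `s + κ - 1`, `s ∈ B`: `vee`.
-/

open Set Filter Topology Metric

noncomputable section

namespace Vale.Agent.P032.S5.H189

open Vale.Agent.P032.Six Vale.Agent.P032.S5.H767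

variable {k : ℕ} {U : Fin k → Set ℂ} {T : ℂ → Set (Fin k)} {z : ℂ} {A B : Set ℝ}
  {L L' : Set (Fin k)} {c : Fin k} {t : ℝ}

/-- the letter `L` on the arcs at `s + κ`, `s ∈ A` -/
def AL (T : ℂ → Set (Fin k)) (z : ℂ) (A : Set ℝ) (κ : ℝ) (L : Set (Fin k)) : Prop :=
  ∀ s ∈ A, ∀ᶠ q in 𝓝[sphere z 1] (pt z (s + κ)), L ⊆ T q

/-- `A` is dense on the left of `t`, `B` accumulates at `t` -/
def Sw (A B : Set ℝ) (t : ℝ) : Prop := (∃ a < t, Icc a t ⊆ closure A) ∧ t ∈ closure B

/-- direction -/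
def Dr (t κ : ℝ) : ℂ := (Real.pi / 3 : ℝ) * (Complex.I * cis ((t + κ) * (Real.pi / 3)))

theorem hasDerivAt_pt (z : ℂ) (t κ : ℝ) : HasDerivAt (fun s => pt z (s + κ)) (Dr t κ) t := by
  have h1 : HasDerivAt (fun s : ℝ => (s + κ) * (Real.pi / 3)) (Real.pi / 3) t := by
    have := ((hasDerivAt_id t).add_const κ).mul_const (Real.pi / 3)
    simpa using this
  have h2 := (hasDerivAt_cis ((t + κ) * (Real.pi / 3))).scomp t h1
  have h3 := h2.const_add z
  refine h3.congr_deriv ?_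
  simp [Dr]

theorem cis_re (a : ℝ) : (cis a).re = Real.cos a := Complex.exp_ofReal_mul_I_re a

theorem cis_im (a : ℝ) : (cis a).im = Real.sin a := Complex.exp_ofReal_mul_I_im a

theorem sp_Dr (z : ℂ) (t v κ : ℝ) :
    sp (pt z (t + v) - z) (Dr t κ) = Real.pi / 3 * Real.sin ((v - κ) * (Real.pi / 3)) := by
  have e : (v - κ) * (Real.pi / 3) = (t + v) * (Real.pi / 3) - (t + κ) * (Real.pi / 3) := by ring
  rw [e, Real.sin_sub]
  unfold pt Dr sp
  simp only [add_sub_cancel_left, Complex.mul_re, Complex.ofReal_re, Complex.ofReal_im,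
    Complex.mul_im, Complex.I_re, Complex.I_im, cis_re, cis_im]
  ring

theorem sp_Dr' (z : ℂ) (t v κ : ℝ) :
    sp (z - pt z (t + v)) (Dr t κ) = -(Real.pi / 3 * Real.sin ((v - κ) * (Real.pi / 3))) := by
  rw [← sp_Dr z t v κ, ← sp_neg_left, neg_sub]

theorem Dr_ne (t κ : ℝ) : Dr t κ ≠ 0 := by
  unfold Dr
  refine mul_ne_zero ?_ (mul_ne_zero Complex.I_ne_zero ?_)
  · exact_mod_cast (by positivity : Real.pi / 3 ≠ 0)
  · intro h
    have := norm_cis ((t + κ) * (Real.pi / 3))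
    rw [h, norm_zero] at this
    exact zero_ne_one this

/-- the points at distance one from `pt (s + κ)` and `pt (r + κ + 3)` -/
def Fg (z : ℂ) (κ : ℝ) (p : ℝ × ℝ) : ℂ := z + pt z (p.1 + κ) - pt z (p.2 + κ)

/-- the curve -/
def gam (z : ℂ) (t κ s : ℝ) : ℂ := z + pt z (s + κ) - pt z (t + κ)

theorem gam_self {κ : ℝ} : gam z t κ t = z := by simp [gam]

theorem hasDerivAt_gam {κ : ℝ} : HasDerivAt (gam z t κ) (Dr t κ) t := by
  have := ((hasDerivAt_pt z t κ).const_add z).sub_const (pt z (t + κ))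
  exact this

theorem continuous_gam {κ : ℝ} : Continuous (gam z t κ) := by
  have := continuous_pt z
  unfold gam
  fun_prop

theorem continuous_Fg {κ : ℝ} : Continuous (Fg z κ) := by
  have := continuous_pt z
  unfold Fg
  fun_prop

/-- **Cells near the centre.** -/
theorem br_gam (h : Irr U T) {κ : ℝ} (hA : AL T z A κ L) (hB : AL T z B (κ + 3) L')
    (hS : Sw A B t) (hcz : c ∈ Pal U z)
    (hsub : ∀ᶠ s in 𝓝[<] t, ∀ᶠ p in 𝓝 (s, t), T (Fg z κ p) ⊆ L ∪ L' ∪ {c}) :
    Br U c (gam z t κ) (Dr t κ) t := by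
  obtain ⟨⟨a, hat, ha⟩, htB⟩ := hS
  refine ⟨continuous_gam, hasDerivAt_gam, ?_⟩
  have e1 : ∀ᶠ s in 𝓝[<] t, pt z (s + κ) ≠ pt z (t + κ) := by
    have h1 := (hasDerivAt_pt z t κ).eventually_ne (c := pt z (t + κ)) (Dr_ne t κ)
    exact (nhdsWithin_mono t fun s hs => ne_of_lt hs) h1
  have e2 : ∀ᶠ s in 𝓝[<] t, pt z (s + κ) + pt z (t + κ) - 2 * z ≠ 0 := by
    have hc : Continuous fun s : ℝ => pt z (s + κ) + pt z (t + κ) - 2 * z := by
      have := continuous_pt z
      fun_prop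
    refine nhdsWithin_le_nhds (hc.continuousAt.eventually_ne fun h0 => ?_)
    have h1 : pt z (t + κ) - z = 0 := by linear_combination h0 / 2
    have h2 := dist_pt z (t + κ)
    rw [dist_eq_norm, h1, norm_zero] at h2
    exact zero_ne_one h2
  have e3 : ∀ᶠ s in 𝓝[<] t, s ∈ Ico a t := Ico_mem_nhdsLT hat
  have key : ∀ᶠ s in 𝓝[<] t, c ∈ T (gam z t κ s) := by
    filter_upwards [e1, e2, e3, hsub] with s h1 h2 h3 h4
    refine two_free h (z := z) (A := A) (B := B) (α := κ) (β := κ + 3) hA hB (F := Fg z κ)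
      continuous_Fg (fun p => ?_) (fun p => ?_) (ha ⟨h3.1, h3.2.le⟩) htB ?_ ?_ ?_ h4
    · rw [dist_eq_norm]
      have e : pt z (p.1 + κ) - Fg z κ p = pt z (p.2 + κ) - z := by unfold Fg; ring
      rw [e, ← dist_eq_norm, dist_pt]
    · rw [dist_comm, dist_eq_norm]
      have e : Fg z κ p - pt z (p.2 + (κ + 3)) = pt z (p.1 + κ) - z := by
        rw [← add_assoc, pt_three]; unfold Fg; ring
      rw [e, ← dist_eq_norm, dist_pt]
    · intro h0
      apply h1
      have h0 : z + pt z (s + κ) - pt z (t + κ) = z := h0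
      linear_combination h0
    · intro h0
      apply h2
      have h0 : z + pt z (s + κ) - pt z (t + κ) + z = 2 * pt z (s + κ) := h0
      linear_combination -h0
    · intro h0
      apply h2
      have h0 : z + pt z (s + κ) - pt z (t + κ) + z = 2 * pt z (t + (κ + 3)) := h0
      rw [← add_assoc, pt_three] at h0
      linear_combination h0
  obtain ⟨b, hb, hbt⟩ := mem_nhdsLT_iff_exists_Ioo_subset.1 key
  refine ⟨(b + t) / 2, by linarith [mem_Iio.1 hb], fun s hs => ?_⟩
  have hb' : b < t := hb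
  rcases lt_or_eq_of_le hs.2 with h5 | h5
  · exact h.sub _ (hbt ⟨by linarith [hs.1], h5⟩)
  · rw [h5, gam_self]; exact hcz

/-- the default form -/
theorem br_gam' (h : Irr U T) {κ : ℝ} (hA : AL T z A κ L) (hB : AL T z B (κ + 3) L')
    (hS : Sw A B t) (hc : c ∈ T z) (hz : T z ⊆ L ∪ L' ∪ {c}) :
    Br U c (gam z t κ) (Dr t κ) t := by
  refine br_gam h hA hB hS (h.sub z hc) ?_
  have h1 : ∀ᶠ p in 𝓝 (t, t), T (Fg z κ p) ⊆ L ∪ L' ∪ {c} := by
    have h2 : Tendsto (Fg z κ) (𝓝 (t, t)) (𝓝 z) := by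
      have := continuous_Fg (z := z) (κ := κ) |>.tendsto (t, t)
      have e : Fg z κ (t, t) = z := by simp [Fg]
      rwa [e] at this
    filter_upwards [h2.eventually (h.nhd z)] with p hp using hp.trans hz
  have h3 : Tendsto (fun s : ℝ => (s, t)) (𝓝[<] t) (𝓝 (t, t)) := by
    have : Continuous fun s : ℝ => (s, t) := by fun_prop
    exact (this.tendsto t).mono_left nhdsWithin_le_nhds
  exact h3.eventually (eventually_eventually_nhds.2 h1)

/-- the points at distance one from `pt (r + κ - 1)` and `pt (s + κ + 1)` -/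
def Fv (z : ℂ) (κ : ℝ) (p : ℝ × ℝ) : ℂ := pt z (p.2 + (κ - 1)) + pt z (p.1 + (κ + 1)) - z

/-- the curve -/
def vee (z : ℂ) (t κ s : ℝ) : ℂ := pt z (t + (κ - 1)) + pt z (s + (κ + 1)) - z

theorem vee_self {κ : ℝ} : vee z t κ t = pt z (t + κ) := by
  have := pt_sum z (t + (κ - 1))
  have e1 : t + (κ - 1) + 2 = t + (κ + 1) := by ring
  have e2 : t + (κ - 1) + 1 = t + κ := by ring
  rw [e1, e2] at this
  unfold vee
  linear_combination this

theorem hasDerivAt_vee {κ : ℝ} : HasDerivAt (vee z t κ) (Dr t (κ + 1)) t := by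
  have := ((hasDerivAt_pt z t (κ + 1)).const_add (pt z (t + (κ - 1)))).sub_const z
  exact this

theorem continuous_vee {κ : ℝ} : Continuous (vee z t κ) := by
  have := continuous_pt z
  unfold vee
  fun_prop

theorem continuous_Fv {κ : ℝ} : Continuous (Fv z κ) := by
  have := continuous_pt z
  unfold Fv
  fun_prop

/-- **Cells near a point of the circle.** -/
theorem br_vee (h : Irr U T) {κ : ℝ} (hA : AL T z A (κ + 1) L) (hB : AL T z B (κ - 1) L')
    (hS : Sw A B t) (hy : T (pt z (t + κ)) ⊆ L ∪ L' ∪ {c}) :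
    Br U c (vee z t κ) (Dr t (κ + 1)) t := by
  obtain ⟨⟨a, hat, ha⟩, htB⟩ := hS
  refine ⟨continuous_vee, hasDerivAt_vee, ?_⟩
  have hself : Fv z κ (t, t) = pt z (t + κ) := vee_self
  have hoff := pt_off z (t + (κ - 1))
  have q1 : t + (κ - 1) + 2 = t + (κ + 1) := by ring
  have q2 : t + (κ - 1) + 1 = t + κ := by ring
  rw [q1, q2] at hoff
  have hc1 : Continuous fun s : ℝ => Fv z κ (s, t) := by
    have := continuous_Fv (z := z) (κ := κ)
    fun_prop
  have e1 : ∀ᶠ s in 𝓝 t, Fv z κ (s, t) ≠ z := by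
    refine hc1.continuousAt.eventually_ne ?_
    rw [hself]
    intro h0
    have := dist_pt z (t + κ)
    rw [h0, dist_self] at this
    exact zero_ne_one this
  have e2 : ∀ᶠ s in 𝓝 t, Fv z κ (s, t) + z - 2 * pt z (s + (κ + 1)) ≠ 0 := by
    have hc : Continuous fun s : ℝ => Fv z κ (s, t) + z - 2 * pt z (s + (κ + 1)) := by
      have := continuous_pt z
      fun_prop
    refine hc.continuousAt.eventually_ne fun h0 => hoff.1 ?_
    have h0 : pt z (t + (κ - 1)) + pt z (t + (κ + 1)) - z + z - 2 * pt z (t + (κ + 1)) = 0 := h0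
    linear_combination -h0
  have e3 : ∀ᶠ s in 𝓝 t, Fv z κ (s, t) + z - 2 * pt z (t + (κ - 1)) ≠ 0 := by
    have hc : Continuous fun s : ℝ => Fv z κ (s, t) + z - 2 * pt z (t + (κ - 1)) := by
      have := continuous_pt z
      fun_prop
    refine hc.continuousAt.eventually_ne fun h0 => hoff.1 ?_
    have h0 : pt z (t + (κ - 1)) + pt z (t + (κ + 1)) - z + z - 2 * pt z (t + (κ - 1)) = 0 := h0
    linear_combination h0
  have e4 : ∀ᶠ s in 𝓝[≤] t, s ∈ Icc a t := by
    have h1 : ∀ᶠ s in 𝓝 t, a < s := lt_mem_nhds hat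
    filter_upwards [mem_nhdsWithin_of_mem_nhds h1, self_mem_nhdsWithin] with s h2 h3
    exact ⟨le_of_lt h2, h3⟩
  have e5 : ∀ᶠ s in 𝓝 t, ∀ᶠ p in 𝓝 (s, t), T (Fv z κ p) ⊆ L ∪ L' ∪ {c} := by
    have h1 : ∀ᶠ p in 𝓝 (t, t), T (Fv z κ p) ⊆ L ∪ L' ∪ {c} := by
      have h2 : Tendsto (Fv z κ) (𝓝 (t, t)) (𝓝 (pt z (t + κ))) := by
        have := continuous_Fv (z := z) (κ := κ) |>.tendsto (t, t)
        rwa [hself] at this
      filter_upwards [h2.eventually (h.nhd _)] with p hp using hp.trans hy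
    have h3 : Tendsto (fun s : ℝ => (s, t)) (𝓝 t) (𝓝 (t, t)) := by
      have : Continuous fun s : ℝ => (s, t) := by fun_prop
      exact this.tendsto t
    exact h3.eventually (eventually_eventually_nhds.2 h1)
  have key : ∀ᶠ s in 𝓝[≤] t, c ∈ T (vee z t κ s) := by
    filter_upwards [mem_nhdsWithin_of_mem_nhds e1, mem_nhdsWithin_of_mem_nhds e2,
      mem_nhdsWithin_of_mem_nhds e3, e4, mem_nhdsWithin_of_mem_nhds e5] with s h1 h2 h3 h4 h5
    refine two_free h (z := z) (A := A) (B := B) (α := κ + 1) (β := κ - 1) hA hB (F := Fv z κ)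
      continuous_Fv (fun p => ?_) (fun p => ?_) (ha h4) htB h1 (fun h0 => h2 ?_)
      (fun h0 => h3 ?_) h5
    · rw [dist_comm, dist_eq_norm]
      have e : Fv z κ p - pt z (p.1 + (κ + 1)) = pt z (p.2 + (κ - 1)) - z := by unfold Fv; ring
      rw [e, ← dist_eq_norm, dist_pt]
    · rw [dist_comm, dist_eq_norm]
      have e : Fv z κ p - pt z (p.2 + (κ - 1)) = pt z (p.1 + (κ + 1)) - z := by unfold Fv; ring
      rw [e, ← dist_eq_norm, dist_pt]
    · exact sub_eq_zero.2 h0
    · exact sub_eq_zero.2 h0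
  obtain ⟨b, hb, hbt⟩ := mem_nhdsLE_iff_exists_Ioc_subset.1 key
  refine ⟨(b + t) / 2, by linarith [mem_Iio.1 hb], fun s hs => ?_⟩
  have hb' : b < t := hb
  exact h.sub _ (hbt ⟨by linarith [hs.1], hs.2⟩)

/-- **Three curves** 120 degrees apart: no partner. -/
theorem tri_curves (h : Irr U T) (hz : z ∈ XX U) {κ : ℝ}
    (h0 : Br U c (gam z t κ) (Dr t κ) t) (h2 : Br U c (gam z t (κ + 2)) (Dr t (κ + 2)) t)
    (h4 : Br U c (gam z t (κ + 4)) (Dr t (κ + 4)) t) : False := by
  obtain ⟨y, hzy, hcy⟩ := h.partner_XX hz c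
  have hsum : ∀ a : ℝ, Real.sin a + Real.sin (a - 2 * (Real.pi / 3)) +
      Real.sin (a - 4 * (Real.pi / 3)) = 0 := by
    intro a
    have e1 : Real.cos (2 * (Real.pi / 3)) = -(1 / 2) := by
      have : 2 * (Real.pi / 3) = Real.pi - Real.pi / 3 := by ring
      rw [this, Real.cos_pi_sub, Real.cos_pi_div_three]
    have e2 : Real.cos (4 * (Real.pi / 3)) = -(1 / 2) := by
      have : 4 * (Real.pi / 3) = Real.pi / 3 + Real.pi := by ring
      rw [this, Real.cos_add_pi, Real.cos_pi_div_three]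
    have e3 : Real.sin (2 * (Real.pi / 3)) = √3 / 2 := by
      have : 2 * (Real.pi / 3) = Real.pi - Real.pi / 3 := by ring
      rw [this, Real.sin_pi_sub, Real.sin_pi_div_three]
    have e4 : Real.sin (4 * (Real.pi / 3)) = -(√3 / 2) := by
      have : 4 * (Real.pi / 3) = Real.pi / 3 + Real.pi := by ring
      rw [this, Real.sin_add_pi, Real.sin_pi_div_three]
    rw [Real.sin_sub, Real.sin_sub, e1, e2, e3, e4]
    ring
  -- the angle of `y`
  obtain ⟨θ, hθ⟩ := exists_cis (u := y - z) (by rw [← dist_eq_norm, dist_comm]; exact hzy)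
  obtain ⟨v, hv⟩ : ∃ v, y = pt z (t + v) := by
    refine ⟨θ / (Real.pi / 3) - t, ?_⟩
    unfold pt
    have e : (t + (θ / (Real.pi / 3) - t)) * (Real.pi / 3) = θ := by
      have : Real.pi / 3 ≠ 0 := by positivity
      field_simp
      ring
    rw [e, ← hθ]; ring
  set S : ℝ → ℝ := fun m => Real.sin ((v - m) * (Real.pi / 3)) with hSdef
  have hs : S κ + S (κ + 2) + S (κ + 4) = 0 := by
    have := hsum ((v - κ) * (Real.pi / 3))
    have e1 : (v - κ) * (Real.pi / 3) - 2 * (Real.pi / 3) = (v - (κ + 2)) * (Real.pi / 3) := by ring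
    have e2 : (v - κ) * (Real.pi / 3) - 4 * (Real.pi / 3) = (v - (κ + 4)) * (Real.pi / 3) := by ring
    rw [e1, e2] at this
    exact this
  have hpi : 0 < Real.pi / 3 := by positivity
  have key : ∀ m m', Br U c (gam z t m) (Dr t m) t → Br U c (gam z t m') (Dr t m') t →
      S m < 0 → 0 < S m' → False := by
    intro m m' hm hm' h1 h2
    refine swing_two h.mx hm hm' (by rw [gam_self, gam_self]) (y := y)
      (by rw [gam_self]; exact hzy) hcy ?_ ?_
    · rw [gam_self, hv, sp_Dr']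
      have : Real.pi / 3 * Real.sin ((v - m) * (Real.pi / 3)) < 0 := mul_neg_of_pos_of_neg hpi h1
      linarith
    · rw [gam_self, hv, sp_Dr']
      have : 0 < Real.pi / 3 * Real.sin ((v - m') * (Real.pi / 3)) := mul_pos hpi h2
      linarith
  -- not all zero
  have hnz : ¬ (S κ = 0 ∧ S (κ + 2) = 0) := by
    rintro ⟨h5, h6⟩
    have e1 : (v - (κ + 2)) * (Real.pi / 3) = (v - κ) * (Real.pi / 3) - (Real.pi - Real.pi / 3) := by
      ring
    have h6 : Real.sin ((v - (κ + 2)) * (Real.pi / 3)) = 0 := h6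
    have h5 : Real.sin ((v - κ) * (Real.pi / 3)) = 0 := h5
    rw [e1, Real.sin_sub, h5, Real.sin_pi_sub, Real.sin_pi_div_three, zero_mul, zero_sub,
      neg_eq_zero, mul_eq_zero] at h6
    rcases h6 with h6 | h6
    · have := Real.sin_sq_add_cos_sq ((v - κ) * (Real.pi / 3))
      rw [h5, h6] at this
      norm_num at this
    · have : (0 : ℝ) < √3 := by positivity
      linarith
  rcases lt_trichotomy (S κ) 0 with h5 | h5 | h5
  · rcases lt_or_ge 0 (S (κ + 2)) with h6 | h6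
    · exact key _ _ h0 h2 h5 h6
    · exact key _ _ h0 h4 h5 (by linarith)
  · rcases lt_trichotomy (S (κ + 2)) 0 with h6 | h6 | h6
    · exact key _ _ h2 h4 h6 (by linarith)
    · exact hnz ⟨h5, h6⟩
    · exact key _ _ h4 h2 (by linarith) h6
  · rcases lt_or_ge (S (κ + 2)) 0 with h6 | h6
    · exact key _ _ h2 h0 h6 h5
    · exact key _ _ h4 h0 (by linarith) h5

end Vale.Agent.P032.S5.H189
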