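import Vale.Agent.P032.S5.H189.Cells
import Vale.Agent.P032.S5.H220.FrozIA

/-!
# P032: the frozen event (II) of a clean five coloured centre

`froz_II : Fz (fx 1) (fy 1)`, for every set of broken pairs.
-/

open Set Filter Topology Metric

noncomputable section

namespace Vale.Agent.P032.S5.H189

open Vale.Agent.P032.Six Vale.Agent.P032.S5.H122 Vale.Agent.P032.S5.H220
  Vale.Agent.P032.Words Vale.Agent.P032.Words.Pent

open Vale.Agent.P032.S5.H767 hiding col

section

variable {k : ℕ} {U : Fin k → Set ℂ} {T : ℂ → Set (Fin k)} {z : ℂ} {A B : Set ℝ} {t : ℝ}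

theorem ev_st {κ : ℝ} {P : ℂ → Prop} (hP : ∀ᶠ w in 𝓝 z, P w) :
    ∀ᶠ s in 𝓝[<] t, ∀ᶠ p in 𝓝 (s, t), P (Fg z κ p) := by
  have h1 : ∀ᶠ p in 𝓝 (t, t), P (Fg z κ p) := by
    have h2 : Tendsto (Fg z κ) (𝓝 (t, t)) (𝓝 z) := by
      have := continuous_Fg (z := z) (κ := κ) |>.tendsto (t, t)
      have e : Fg z κ (t, t) = z := by simp [Fg]
      rwa [e] at this
    exact h2.eventually hP
  have h3 : Tendsto (fun s : ℝ => (s, t)) (𝓝[<] t) (𝓝 (t, t)) := by
    have : Continuous fun s : ℝ => (s, t) := by fun_prop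
    exact (this.tendsto t).mono_left nhdsWithin_le_nhds
  exact h3.eventually (eventually_eventually_nhds.2 h1)

theorem far_pal {c : Fin k} {q : ℂ} (h : ∀ᶠ g in 𝓝 z, g ∈ U c → 1 < dist q g) :
    ∀ᶠ w in 𝓝 z, c ∈ Pal U w → 1 ≤ dist q w := by
  filter_upwards [eventually_eventually_nhds.2 h] with w hw hc
  by_contra hcon
  push Not at hcon
  have h1 : ∀ᶠ g in 𝓝 w, dist q g < 1 :=
    (continuous_const.dist continuous_id).continuousAt.eventually_lt continuousAt_const hcon
  obtain ⟨g, hg, hg1, hg2⟩ := ((mem_closure_iff_frequently.1 hc).and_eventually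
    (h1.and hw)).exists
  linarith [hg2 hg]

theorem sin_neg_third : Real.sin (-1 * (Real.pi / 3)) < 0 := by
  rw [neg_one_mul, Real.sin_neg]
  linarith [sin_third_pos]

theorem sin_neg_two_third : Real.sin (-2 * (Real.pi / 3)) < 0 := by
  have e : -2 * (Real.pi / 3) = -(2 * (Real.pi / 3)) := by ring
  rw [e, Real.sin_neg, sin_two_third]
  have : (0 : ℝ) < √3 := by positivity
  linarith

/-- the colour of the cells near a point of the circle is far from that point near `z` -/
theorem vee_far (h : Irr U T) {κ : ℝ} {L L' : Set (Fin k)} {c : Fin k}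
    (hA : AL T z A (κ + 1) L) (hB : AL T z B (κ - 1) L')
    (hS : Sw A B t) (hy : T (pt z (t + κ)) ⊆ L ∪ L' ∪ {c}) :
    ∀ᶠ w in 𝓝 z, c ∈ T w → 1 ≤ dist (pt z (t + κ)) w := by
  have hb := br_vee h hA hB hS hy
  have h1 := (swing_aux h.mx hb (y := z) (by rw [vee_self]; exact dist_pt z _)).2 (by
    rw [vee_self, sp_Dr]
    have e : κ - (κ + 1) = -1 := by ring
    rw [e]
    exact mul_neg_of_pos_of_neg (by positivity) sin_neg_third)
  rw [vee_self] at h1
  filter_upwards [far_pal h1] with w hw hc using hw (h.sub w hc)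

theorem gam_near {κ v : ℝ} (hv : Real.sin ((v - κ) * (Real.pi / 3)) < 0) :
    ∀ᶠ s in 𝓝[<] t, ∀ᶠ p in 𝓝 (s, t), dist (pt z (t + v)) (Fg z κ p) < 1 := by
  have hpi : 0 < Real.pi / 3 := by positivity
  have h1 := curve_near (γ := gam z t κ) (y := pt z (t + v)) (t := t) hasDerivAt_gam
    (by rw [gam_self, dist_comm]; exact dist_pt z _) (by
      rw [gam_self, sp_Dr']
      have := mul_neg_of_pos_of_neg hpi hv
      linarith)
  filter_upwards [h1] with s hs
  have h2 : Continuous fun p => dist (pt z (t + v)) (Fg z κ p) :=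
    continuous_const.dist continuous_Fg
  exact h2.continuousAt.eventually_lt continuousAt_const (by rw [dist_comm]; exact hs)

/-- **(II), one-sided form.** -/
theorem rsII (h : Irr U T) (hXX : z ∈ XX U) {κ : ℝ} {c0 c1 c2 c3 c4 c5 : Fin k}
    (hz : T z ⊆ {c0, c1, c2, c3, c4}) (h4 : c4 ∈ T z) (hS : Sw A B t)
    (a1 : AL T z A (κ + 1) {c2, c3}) (a2 : AL T z A (κ + 2) {c5})
    (a3 : AL T z A (κ + 3) {c1, c2}) (a5 : AL T z A (κ + 5) {c2, c3})
    (b0 : AL T z B κ {c1, c2}) (b1 : AL T z B (κ + 1) {c5}) (b2 : AL T z B (κ + 2) {c0, c1})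
    (b4 : AL T z B (κ + 4) {c0, c1})
    (y1 : T (pt z (t + (κ + 1))) ⊆ {c2, c3, c5}) (y2 : T (pt z (t + (κ + 2))) ⊆ {c0, c1, c5}) :
    False := by
  have hsix : ∀ (m : ℝ) (L : Set (Fin k)), AL T z B m L → AL T z B (m + 6) L := by
    intro m L hm s hs
    have := hm s hs
    rwa [← pt_six, add_assoc] at this
  -- the exclusions
  have k1 := vee_far h (κ := κ + 1) (c := c3) (L := {c5}) (L' := {c1, c2})
    (by rw [show κ + 1 + 1 = κ + 2 by ring]; exact a2)
    (by rw [show κ + 1 - 1 = κ by ring]; exact b0) hS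
    (y1.trans (by rintro i (rfl | rfl | rfl) <;> simp))
  have k2 := vee_far h (κ := κ + 2) (c := c0) (L := {c1, c2}) (L' := {c5})
    (by rw [show κ + 2 + 1 = κ + 3 by ring]; exact a3)
    (by rw [show κ + 2 - 1 = κ + 1 by ring]; exact b1) hS
    (y2.trans (by rintro i (rfl | rfl | rfl) <;> simp))
  have n1 := gam_near (z := z) (t := t) (κ := κ + 3) (v := κ + 1)
    (by rw [show κ + 1 - (κ + 3) = -2 by ring]; exact sin_neg_two_third)
  have n2 := gam_near (z := z) (t := t) (κ := κ + 3) (v := κ + 2)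
    (by rw [show κ + 2 - (κ + 3) = -1 by ring]; exact sin_neg_third)
  have hsub : ∀ᶠ s in 𝓝[<] t, ∀ᶠ p in 𝓝 (s, t),
      T (Fg z (κ + 3) p) ⊆ {c1, c2} ∪ {c1, c2} ∪ {c4} := by
    filter_upwards [n1, n2, ev_st (κ := κ + 3) (t := t) (k1.and (k2.and (h.nhd z)))] with s h1 h2 h3
    filter_upwards [h1, h2, h3] with p g1 g2 g3 i hi
    rcases hz (g3.2.2 hi) with rfl | rfl | rfl | rfl | rfl
    · exact absurd (g3.2.1 hi) (not_le.2 g2)
    · simp
    · simp
    · exact absurd (g3.1 hi) (not_le.2 g1)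
    · simp
  have hb3 := br_gam h (κ := κ + 3) (c := c4) a3
    (by rw [show κ + 3 + 3 = κ + 6 by ring]; exact hsix _ _ b0) hS (h.sub z h4) hsub
  have hb1 := br_gam' h (κ := κ + 1) (c := c4) a1
    (by rw [show κ + 1 + 3 = κ + 4 by ring]; exact b4) hS h4
    (hz.trans (by rintro i (rfl | rfl | rfl | rfl | rfl) <;> simp))
  have hb5 := br_gam' h (κ := κ + 5) (c := c4) a5
    (by rw [show κ + 5 + 3 = κ + 2 + 6 by ring]; exact hsix _ _ b2) hS h4
    (hz.trans (by rintro i (rfl | rfl | rfl | rfl | rfl) <;> simp))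
  refine tri_curves h hXX (κ := κ + 1) (t := t) (c := c4) hb1 ?_ ?_
  · rw [show κ + 1 + 2 = κ + 3 by ring]; exact hb3
  · rw [show κ + 1 + 4 = κ + 5 by ring]; exact hb5

end

variable {U : Fin 6 → Set ℂ} {T : ℂ → Set (Fin 6)} {z : ℂ} {e : Fin 6 → Fin 6}

theorem col_pair (e : Fin 6 → Fin 6) {l a b : Fin 6} (h : ixs l = {a, b}) :
    col e l = {e a, e b} := by
  unfold col
  rw [h]
  simp [image_pair]

/-- letters at arbitrary offsets -/
theorem al_of {A : Set ℝ} (hA : IsOpen A) {x : Fin 6 → Fin 6}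
    (hx : ∀ t ∈ A, ∀ k : Fin 6, col e (x k) ⊆ T (pt z (t + (k.val : ℝ)))) {κ : ℝ} {k : Fin 6}
    (h : κ = (k.val : ℝ) ∨ κ = (k.val : ℝ) + 6) : AL T z A κ (col e (x k)) := by
  intro s hs
  refine ev_circle z ?_
  have h3 : Tendsto (fun v : ℝ => v - κ) (𝓝 (s + κ)) (𝓝 s) := by
    have : Continuous fun v : ℝ => v - κ := by fun_prop
    have h4 := this.tendsto (s + κ)
    simpa using h4
  filter_upwards [h3.eventually (hA.mem_nhds hs)] with v hv
  have := hx _ hv k
  rcases h with rfl | rfl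
  · rwa [show v - (k.val : ℝ) + k.val = v by ring] at this
  · rw [← pt_six, show v - ((k.val : ℝ) + 6) + k.val + 6 = v by ring] at this
    exact this

theorem disj_IX {A B : Set ℝ} (C : Cn U T z e) (hA : IsOpen A) (hB : IsOpen B)
    (hAx : ∀ t ∈ A, ∀ k : Fin 6, col e (fx 1 k) ⊆ T (pt z (t + (k.val : ℝ))))
    (hBy : ∀ t ∈ B, ∀ k : Fin 6, col e (fy 1 k) ⊆ T (pt z (t + (k.val : ℝ)))) :
    Disjoint A B :=
  disj_AB C hA hB (c := 1) (fun t ht => by
      have := hAx t ht 1; simpa [fx] using this) (fun t ht => by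
      have := hBy t ht 2
      rw [show t + 1 + 1 = t + (((2 : Fin 6).val : ℕ) : ℝ) by push_cast; norm_num; ring]
      simpa [fy] using this)

/-- the palette of a point which has the letters of both hexagons -/
theorem pal_both (C : Cn U T z e) {s : ℝ} {l m : Fin 6} {a b c : Fin 6}
    (hl : col e l ⊆ T (pt z s)) (hm : col e m ⊆ T (pt z s))
    (hd : ({a, b, c} : Finset (Fin 6)) = ixs l ∪ ixs m) (hc : ({a, b, c} : Finset (Fin 6)).card = 3) :
    T (pt z s) ⊆ {e a, e b, e c} := by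
  have h3 := C.clean _ (dist_pt z s)
  have h1 : e '' (({a, b, c} : Finset (Fin 6)) : Set (Fin 6)) ⊆ T (pt z s) := by
    rw [hd, Finset.coe_union, image_union]
    exact union_subset hl hm
  have h2 : (e '' (({a, b, c} : Finset (Fin 6)) : Set (Fin 6))).ncard = 3 := by
    rw [Set.ncard_image_of_injective _ C.inj, Set.ncard_coe_finset, hc]
  have h4 := Set.eq_of_subset_of_ncard_le h1 (by omega) (Set.toFinite _)
  rw [← h4]
  rintro _ ⟨m, hm, rfl⟩
  simp only [Finset.coe_insert, Finset.coe_singleton] at hm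
  rcases hm with rfl | rfl | rfl <;> simp

theorem Tz_sub (C : Cn U T z e) : T z ⊆ {e 0, e 1, e 2, e 3, e 4} := by
  intro i hi
  obtain ⟨y, rfl⟩ := C.bij.2 i
  have hy5 : y ≠ 5 := (C.pal y).1 hi
  fin_cases y <;> simp_all

/-- **(II)** -/
theorem froz_II : Fz (fx 1) (fy 1) := by
  intro U T z e C u A B hA hB huA huB hcov hAx hBy
  have hd : Disjoint A B := disj_IX C hA hB hAx hBy
  have h4 : e 4 ∈ T z := (C.pal 4).2 (by decide)
  obtain ⟨ε, hε, hcov⟩ := Metric.eventually_nhds_iff.1 hcov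
  obtain ⟨a, haA, ha⟩ := Metric.mem_closure_iff.1 huA ε hε
  obtain ⟨b, hbB, hb⟩ := Metric.mem_closure_iff.1 huB ε hε
  rw [Real.dist_eq, abs_lt] at ha hb
  have hcov' : ∀ x, |x - u| < ε → x ∈ closure (A ∪ B) := by
    intro x hx
    rw [closure_union]
    exact hcov (by rw [Real.dist_eq]; exact hx)
  have clA : ∀ {t : ℝ}, t ∈ closure A → ∀ k : Fin 6, col e (fx 1 k) ⊆ T (pt z (t + (k.val : ℝ))) :=
    fun ht k => cl_sub C.irr (fun t ht => hAx t ht k) ht
  have clB : ∀ {t : ℝ}, t ∈ closure B → ∀ k : Fin 6, col e (fy 1 k) ⊆ T (pt z (t + (k.val : ℝ))) :=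
    fun ht k => cl_sub C.irr (fun t ht => hBy t ht k) ht
  rcases lt_trichotomy a b with hab | hab | hab
  · -- `A` on the left: rotate by three positions and exchange the colours
    obtain ⟨t, ht, htA, htB⟩ := switch hA hd haA hbB hab (fun x hx => hcov' x (by
      rw [abs_lt]; constructor <;> linarith [hx.1, hx.2, ha.1, ha.2, hb.1, hb.2]))
    have hS : Sw A B t := ⟨⟨a, ht.1, htA⟩, htB⟩
    have htA' : t ∈ closure A := htA ⟨ht.1.le, le_rfl⟩
    have pA := clA htA'
    have pB := clB htB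
    refine rsII C.irr C.mem_XX (κ := 3) (c0 := e 3) (c1 := e 2) (c2 := e 1) (c3 := e 0)
      (c4 := e 4) (c5 := e 5) ((Tz_sub C).trans ?_) h4 hS ?_ ?_ ?_ ?_ ?_ ?_ ?_ ?_ ?_ ?_
    · rintro i (rfl | rfl | rfl | rfl | rfl) <;> simp
    · have := al_of (T := T) (z := z) (e := e) hA hAx (κ := 3 + 1) (k := 4) (by left; norm_num)
      rwa [show fx 1 4 = 0 from rfl, col_pair e (l := 0) (a := 0) (b := 1) rfl, Set.pair_comm] at this
    · have := al_of (T := T) (z := z) (e := e) hA hAx (κ := 3 + 2) (k := 5) (by left; norm_num)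
      rw [show fx 1 5 = 5 from rfl] at this
      simpa [col, ixs] using this
    · have := al_of (T := T) (z := z) (e := e) hA hAx (κ := 3 + 3) (k := 0) (by right; norm_num)
      rwa [show fx 1 0 = 1 from rfl, col_pair e (l := 1) (a := 1) (b := 2) rfl, Set.pair_comm] at this
    · have := al_of (T := T) (z := z) (e := e) hA hAx (κ := 3 + 5) (k := 2) (by right; norm_num)
      rwa [show fx 1 2 = 0 from rfl, col_pair e (l := 0) (a := 0) (b := 1) rfl, Set.pair_comm] at this
    · have := al_of (T := T) (z := z) (e := e) hB hBy (κ := 3) (k := 3) (by left; norm_num)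
      rwa [show fy 1 3 = 1 from rfl, col_pair e (l := 1) (a := 1) (b := 2) rfl, Set.pair_comm] at this
    · have := al_of (T := T) (z := z) (e := e) hB hBy (κ := 3 + 1) (k := 4) (by left; norm_num)
      rw [show fy 1 4 = 5 from rfl] at this
      simpa [col, ixs] using this
    · have := al_of (T := T) (z := z) (e := e) hB hBy (κ := 3 + 2) (k := 5) (by left; norm_num)
      rwa [show fy 1 5 = 2 from rfl, col_pair e (l := 2) (a := 2) (b := 3) rfl, Set.pair_comm] at this
    · have := al_of (T := T) (z := z) (e := e) hB hBy (κ := 3 + 4) (k := 1) (by right; norm_num)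
      rwa [show fy 1 1 = 2 from rfl, col_pair e (l := 2) (a := 2) (b := 3) rfl, Set.pair_comm] at this
    · have q1 := pA 4
      have q2 := pB 4
      rw [show t + (((4 : Fin 6).val : ℕ) : ℝ) = t + (3 + 1) by norm_num] at q1 q2
      exact pal_both C (l := fx 1 4) (m := fy 1 4) (a := 1) (b := 0) (c := 5) q1 q2 (by decide)
        (by decide)
    · have q1 := pA 5
      have q2 := pB 5
      rw [show t + (((5 : Fin 6).val : ℕ) : ℝ) = t + (3 + 2) by norm_num] at q1 q2
      exact pal_both C (l := fx 1 5) (m := fy 1 5) (a := 3) (b := 2) (c := 5) q1 q2 (by decide)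
        (by decide)
  · exact Set.disjoint_left.1 hd haA (hab ▸ hbB)
  · -- `B` on the left
    obtain ⟨t, ht, htB, htA⟩ := switch hB hd.symm hbB haA hab (fun x hx => by
      rw [union_comm]
      exact hcov' x (by
        rw [abs_lt]; constructor <;> linarith [hx.1, hx.2, ha.1, ha.2, hb.1, hb.2]))
    have hS : Sw B A t := ⟨⟨b, ht.1, htB⟩, htA⟩
    have htB' : t ∈ closure B := htB ⟨ht.1.le, le_rfl⟩
    have pA := clA htA
    have pB := clB htB'
    refine rsII C.irr C.mem_XX (κ := 0) (c0 := e 0) (c1 := e 1) (c2 := e 2) (c3 := e 3)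
      (c4 := e 4) (c5 := e 5) (Tz_sub C) h4 hS ?_ ?_ ?_ ?_ ?_ ?_ ?_ ?_ ?_ ?_
    · have := al_of (T := T) (z := z) (e := e) hB hBy (κ := 0 + 1) (k := 1) (by left; norm_num)
      rwa [show fy 1 1 = 2 from rfl, col_pair e (l := 2) (a := 2) (b := 3) rfl] at this
    · have := al_of (T := T) (z := z) (e := e) hB hBy (κ := 0 + 2) (k := 2) (by left; norm_num)
      rw [show fy 1 2 = 5 from rfl] at this
      simpa [col, ixs] using this
    · have := al_of (T := T) (z := z) (e := e) hB hBy (κ := 0 + 3) (k := 3) (by left; norm_num)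
      rwa [show fy 1 3 = 1 from rfl, col_pair e (l := 1) (a := 1) (b := 2) rfl] at this
    · have := al_of (T := T) (z := z) (e := e) hB hBy (κ := 0 + 5) (k := 5) (by left; norm_num)
      rwa [show fy 1 5 = 2 from rfl, col_pair e (l := 2) (a := 2) (b := 3) rfl] at this
    · have := al_of (T := T) (z := z) (e := e) hA hAx (κ := 0) (k := 0) (by left; norm_num)
      rwa [show fx 1 0 = 1 from rfl, col_pair e (l := 1) (a := 1) (b := 2) rfl] at this
    · have := al_of (T := T) (z := z) (e := e) hA hAx (κ := 0 + 1) (k := 1) (by left; norm_num)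
      rw [show fx 1 1 = 5 from rfl] at this
      simpa [col, ixs] using this
    · have := al_of (T := T) (z := z) (e := e) hA hAx (κ := 0 + 2) (k := 2) (by left; norm_num)
      rwa [show fx 1 2 = 0 from rfl, col_pair e (l := 0) (a := 0) (b := 1) rfl] at this
    · have := al_of (T := T) (z := z) (e := e) hA hAx (κ := 0 + 4) (k := 4) (by left; norm_num)
      rwa [show fx 1 4 = 0 from rfl, col_pair e (l := 0) (a := 0) (b := 1) rfl] at this
    · have q1 := pA 1
      have q2 := pB 1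
      rw [show t + (((1 : Fin 6).val : ℕ) : ℝ) = t + (0 + 1) by norm_num] at q1 q2
      exact pal_both C (l := fx 1 1) (m := fy 1 1) (a := 2) (b := 3) (c := 5) q1 q2 (by decide)
        (by decide)
    · have q1 := pA 2
      have q2 := pB 2
      rw [show t + (((2 : Fin 6).val : ℕ) : ℝ) = t + (0 + 2) by norm_num] at q1 q2
      exact pal_both C (l := fx 1 2) (m := fy 1 2) (a := 0) (b := 1) (c := 5) q1 q2 (by decide)
        (by decide)

end Vale.Agent.P032.S5.H189
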