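import Vale.Agent.P032.S5.H767.RawT

/-!
# P032: curves of one colour

`swing` : along a curve of points with `c ∈ Pal` the unit distance to a point of `U c` is never
taken; so the points of `U c` near a point at distance one from the end of the curve are on the
side given by the direction of the curve.
`two_free` : a point at distance one from two points of `S(z)` has none of the colours of the two
arcs.
`switch` : the first switch between two open sets of times.
-/

open Set Filter Topology Metric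

noncomputable section

namespace Vale.Agent.P032.S5.H189

open Vale.Agent.P032.Six Vale.Agent.P032.S5.H767

variable {k : ℕ} {U : Fin k → Set ℂ} {T : ℂ → Set (Fin k)}

/-- scalar product -/
def sp (a b : ℂ) : ℝ := a.re * b.re + a.im * b.im

theorem sp_neg_right (a b : ℂ) : sp a (-b) = -sp a b := by simp [sp]; ring

theorem sp_neg_left (a b : ℂ) : sp (-a) b = -sp a b := by simp [sp]; ring

theorem sp_comm (a b : ℂ) : sp a b = sp b a := by simp [sp]; ring

theorem sq_dist_sp (a b : ℂ) : dist a b ^ 2 = sp (a - b) (a - b) := by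
  rw [sq_dist]; simp [sp]; ring

theorem hasDerivAt_sqd {γ : ℝ → ℂ} {x y : ℂ} {t : ℝ} (hd : HasDerivAt γ x t) :
    HasDerivAt (fun s => dist (γ s) y ^ 2 - 1) (2 * sp (γ t - y) x) t := by
  have hre : HasDerivAt (fun t => (γ t).re) x.re t :=
    Complex.reCLM.hasFDerivAt.comp_hasDerivAt t hd
  have him : HasDerivAt (fun t => (γ t).im) x.im t :=
    Complex.imCLM.hasFDerivAt.comp_hasDerivAt t hd
  have h := (((hre.sub_const y.re).pow 2).add ((him.sub_const y.im).pow 2)).sub_const (1 : ℝ)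
  have e : (fun s => dist (γ s) y ^ 2 - 1) =
      fun s => ((γ s).re - y.re) ^ 2 + ((γ s).im - y.im) ^ 2 - 1 := by
    funext s; rw [sq_dist]
  rw [e]
  refine h.congr_deriv ?_
  simp [sp]
  ring

/-- the sign to the left of a zero with positive derivative -/
theorem left_neg {f : ℝ → ℝ} {d t : ℝ} (hf : HasDerivAt f d t) (h0 : f t = 0) (hd : 0 < d) :
    ∀ᶠ s in 𝓝[<] t, f s < 0 := by
  have hs := hf.tendsto_slope
  have h1 : ∀ᶠ s in 𝓝[≠] t, 0 < slope f t s := hs.eventually (lt_mem_nhds hd)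
  have h2 : 𝓝[<] t ≤ 𝓝[≠] t := nhdsWithin_mono t fun s hs => ne_of_lt hs
  filter_upwards [h2 h1, self_mem_nhdsWithin] with s h3 h4
  have h4 : s < t := h4
  rw [slope_def_field, h0] at h3
  by_contra hcon
  push Not at hcon
  have h5 : s - t < 0 := by linarith
  have : (f s - 0) / (s - t) ≤ 0 := div_nonpos_of_nonneg_of_nonpos (by linarith) h5.le
  linarith

theorem dist_lt_of_sq {a b : ℂ} (h : dist a b ^ 2 - 1 < 0) : dist a b < 1 := by
  have h0 : 0 ≤ dist a b := dist_nonneg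
  nlinarith

theorem lt_dist_of_sq {a b : ℂ} (h : 0 < dist a b ^ 2 - 1) : 1 < dist a b := by
  have h0 : 0 ≤ dist a b := dist_nonneg
  nlinarith

/-- left of `t` the curve is near or far from `y` -/
theorem curve_near {γ : ℝ → ℂ} {x y : ℂ} {t : ℝ} (hd : HasDerivAt γ x t) (hy : dist (γ t) y = 1)
    (hx : 0 < sp (γ t - y) x) : ∀ᶠ s in 𝓝[<] t, dist (γ s) y < 1 := by
  have h := left_neg (hasDerivAt_sqd (y := y) hd) (by simp [hy]) (by linarith)
  filter_upwards [h] with s hs using dist_lt_of_sq hs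

theorem curve_far {γ : ℝ → ℂ} {x y : ℂ} {t : ℝ} (hd : HasDerivAt γ x t) (hy : dist (γ t) y = 1)
    (hx : sp (γ t - y) x < 0) : ∀ᶠ s in 𝓝[<] t, 1 < dist (γ s) y := by
  have h := left_neg (hasDerivAt_sqd (y := y) hd).neg (by simp [hy]) (by linarith)
  filter_upwards [h] with s hs
  have hs : -(dist (γ s) y ^ 2 - 1) < 0 := hs
  exact lt_dist_of_sq (by linarith)

/-- a piece of a curve ending at `γ t` with the colour `c` -/
def Br (U : Fin k → Set ℂ) (c : Fin k) (γ : ℝ → ℂ) (x : ℂ) (t : ℝ) : Prop :=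
  Continuous γ ∧ HasDerivAt γ x t ∧ ∃ a < t, ∀ s ∈ Icc a t, c ∈ Pal U (γ s)

theorem swing_aux (h : Mx U) {c : Fin k} {γ : ℝ → ℂ} {x : ℂ} {t : ℝ} (hB : Br U c γ x t) {y : ℂ}
    (hy : dist (γ t) y = 1) :
    (0 < sp (γ t - y) x → ∀ᶠ g in 𝓝 y, g ∈ U c → dist (γ t) g < 1) ∧
    (sp (γ t - y) x < 0 → ∀ᶠ g in 𝓝 y, g ∈ U c → 1 < dist (γ t) g) := by
  obtain ⟨hc, hd, a, ha, hp⟩ := hB
  have hI : Ico a t ∈ 𝓝[<] t := Ico_mem_nhdsLT ha
  constructor
  · intro hx
    obtain ⟨s, hs1, hs2⟩ := ((curve_near hd hy hx).and (eventually_of_mem hI fun s hs => hs)).exists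
    have h1 : ∀ᶠ g in 𝓝 y, dist (γ s) g < 1 :=
      (continuous_const.dist continuous_id).continuousAt.eventually_lt continuousAt_const hs1
    filter_upwards [h1] with g hg hgU
    by_contra hcon
    push Not at hcon
    have h2 : Continuous fun r => dist (γ r) g := hc.dist continuous_const
    obtain ⟨r, hr, hr1⟩ := intermediate_value_Icc hs2.2.le h2.continuousOn ⟨hg.le, hcon⟩
    have hr1 : dist (γ r) g = 1 := hr1
    exact h.notMem' hgU (by rw [dist_comm]; exact hr1) (hp r ⟨hs2.1.trans hr.1, hr.2⟩)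
  · intro hx
    obtain ⟨s, hs1, hs2⟩ := ((curve_far hd hy hx).and (eventually_of_mem hI fun s hs => hs)).exists
    have h1 : ∀ᶠ g in 𝓝 y, 1 < dist (γ s) g :=
      (continuousAt_const).eventually_lt (continuous_const.dist continuous_id).continuousAt hs1
    filter_upwards [h1] with g hg hgU
    by_contra hcon
    push Not at hcon
    have h2 : Continuous fun r => dist (γ r) g := hc.dist continuous_const
    obtain ⟨r, hr, hr1⟩ := intermediate_value_Icc' hs2.2.le h2.continuousOn ⟨hcon, hg.le⟩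
    have hr1 : dist (γ r) g = 1 := hr1
    exact h.notMem' hgU (by rw [dist_comm]; exact hr1) (hp r ⟨hs2.1.trans hr.1, hr.2⟩)

/-- two curves on different sides of a point with the colour `c` -/
theorem swing_two (h : Mx U) {c : Fin k} {γ γ' : ℝ → ℂ} {x x' : ℂ} {t t' : ℝ}
    (hB : Br U c γ x t) (hB' : Br U c γ' x' t') (he : γ t = γ' t') {y : ℂ}
    (hy : dist (γ t) y = 1) (hc : c ∈ Pal U y) (hx : 0 < sp (γ t - y) x)
    (hx' : sp (γ t - y) x' < 0) : False := by
  have h1 := (swing_aux h hB hy).1 hx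
  have h2 := (swing_aux h hB' (y := y) (by rw [← he]; exact hy)).2 (by rw [← he]; exact hx')
  have h3 : ∃ᶠ g in 𝓝 y, g ∈ U c := mem_closure_iff_frequently.1 hc
  obtain ⟨g, hg, hg1, hg2⟩ := (h3.and_eventually (h1.and h2)).exists
  have h4 := hg1 hg
  have h5 := hg2 hg
  rw [← he] at h5
  linarith

/-- **Two arcs.** -/
theorem two_free (h : Irr U T) {z : ℂ} {A B : Set ℝ} {α β : ℝ} {L L' : Set (Fin k)}
    (hA : ∀ s ∈ A, ∀ᶠ q in 𝓝[sphere z 1] (pt z (s + α)), L ⊆ T q)
    (hB : ∀ s ∈ B, ∀ᶠ q in 𝓝[sphere z 1] (pt z (s + β)), L' ⊆ T q)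
    {F : ℝ × ℝ → ℂ} (hF : Continuous F)
    (hF1 : ∀ p, dist (pt z (p.1 + α)) (F p) = 1) (hF2 : ∀ p, dist (pt z (p.2 + β)) (F p) = 1)
    {s t : ℝ} (hs : s ∈ closure A) (ht : t ∈ closure B) (h0 : F (s, t) ≠ z)
    (h1 : F (s, t) + z ≠ 2 * pt z (s + α)) (h2 : F (s, t) + z ≠ 2 * pt z (t + β))
    {c : Fin k} (hsub : ∀ᶠ p in 𝓝 (s, t), T (F p) ⊆ L ∪ L' ∪ {c}) : c ∈ T (F (s, t)) := by
  by_contra hcon
  have e0 : ∀ᶠ p in 𝓝 (s, t), c ∉ T (F p) :=
    hF.continuousAt.eventually ((h.closed c).isOpen_compl.mem_nhds hcon)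
  have e1 : ∀ᶠ p in 𝓝 (s, t), F p ≠ z := hF.continuousAt.eventually_ne h0
  have e2 : ∀ᶠ p : ℝ × ℝ in 𝓝 (s, t), F p + z ≠ 2 * pt z (p.1 + α) := by
    have hc : Continuous fun p : ℝ × ℝ => F p + z - 2 * pt z (p.1 + α) := by
      have := continuous_pt z
      fun_prop
    have := hc.continuousAt.eventually_ne (y := 0) (x := (s, t)) (sub_ne_zero.2 h1)
    filter_upwards [this] with p hp using sub_ne_zero.1 hp
  have e3 : ∀ᶠ p : ℝ × ℝ in 𝓝 (s, t), F p + z ≠ 2 * pt z (p.2 + β) := by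
    have hc : Continuous fun p : ℝ × ℝ => F p + z - 2 * pt z (p.2 + β) := by
      have := continuous_pt z
      fun_prop
    have := hc.continuousAt.eventually_ne (y := 0) (x := (s, t)) (sub_ne_zero.2 h2)
    filter_upwards [this] with p hp using sub_ne_zero.1 hp
  have hst : (s, t) ∈ closure (A ×ˢ B) := by rw [closure_prod_eq]; exact ⟨hs, ht⟩
  obtain ⟨p, hp, h3, h4, h5, h6, h7⟩ := ((mem_closure_iff_frequently.1 hst).and_eventually
    (e0.and (e1.and (e2.and (e3.and hsub))))).exists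
  have hA' := hA p.1 hp.1
  have hB' := hB p.2 hp.2
  obtain ⟨i, hi⟩ := h.ne (F p)
  rcases h7 hi with (h8 | h8) | h8
  · exact line_free h (dist_pt z _) (hA'.mono fun q hq => hq h8) (hF1 p) h4 h5 (h.sub _ hi)
  · exact line_free h (dist_pt z _) (hB'.mono fun q hq => hq h8) (hF2 p) h4 h6 (h.sub _ hi)
  · exact h3 (by rw [mem_singleton_iff] at h8; exact h8 ▸ hi)

/-- **First switch.** -/
theorem switch {A B : Set ℝ} (hA : IsOpen A) (hAB : Disjoint A B) {a b : ℝ} (ha : a ∈ A)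
    (hb : b ∈ B) (hab : a < b) (hd : ∀ x ∈ Icc a b, x ∈ closure (A ∪ B)) :
    ∃ t ∈ Ioc a b, Icc a t ⊆ closure A ∧ t ∈ closure B := by
  set S : Set ℝ := B ∩ Icc a b with hS
  have hne : S.Nonempty := ⟨b, hb, hab.le, le_rfl⟩
  have hbd : BddBelow S := ⟨a, fun x hx => hx.2.1⟩
  set t := sInf S with ht
  have htS : t ∈ closure S := csInf_mem_closure hne hbd
  have htB : t ∈ closure B := closure_mono inter_subset_left htS
  have hat : a ≤ t := le_csInf hne fun x hx => hx.2.1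
  have htb : t ≤ b := csInf_le hbd ⟨hb, hab.le, le_rfl⟩
  have hat' : a < t := by
    rcases lt_or_eq_of_le hat with h | h
    · exact h
    · exfalso
      rw [← h] at htB
      obtain ⟨x, hx1, hx2⟩ := mem_closure_iff.1 htB A hA ha
      exact Set.disjoint_left.1 hAB hx1 hx2
  have hno : ∀ x ∈ Ioo a t, x ∈ closure A := by
    intro x hx
    have h1 := hd x ⟨hx.1.le, hx.2.le.trans htb⟩
    rw [closure_union] at h1
    rcases h1 with h1 | h1
    · exact h1
    · exfalso
      obtain ⟨y, hy1, hy2⟩ := mem_closure_iff.1 h1 _ isOpen_Ioo hx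
      exact absurd (csInf_le hbd ⟨hy2, hy1.1.le, hy1.2.le.trans htb⟩) (not_le.2 hy1.2)
  refine ⟨t, ⟨hat', htb⟩, ?_, htB⟩
  have h1 : closure (Ioo a t) ⊆ closure A := closure_minimal hno isClosed_closure
  rwa [closure_Ioo hat'.ne] at h1

end Vale.Agent.P032.S5.H189
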